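import Mathlib

/-!
# P088, stage 3: the one-variable profile `R(b) = 2 cosh(b / √m) ^ m`, `2/3 ≤ m ≤ 1`

`P = R'`, `T = R''`.
-/

open Real

noncomputable section

namespace Vale.Agent.P088.R2.H747

/-- `cosh (b / √m)`. -/
def Ch (m b : ℝ) : ℝ := cosh (b / √m)

/-- The profile. -/
def Rp (m b : ℝ) : ℝ := 2 * Ch m b ^ m

/-- Its derivative. -/
def Pp (m b : ℝ) : ℝ := 2 * √m * (Ch m b ^ (m - 1) * sinh (b / √m))

/-- Its second derivative. -/
def Tp (m b : ℝ) : ℝ := 2 * (m * Ch m b ^ m + (1 - m) * Ch m b ^ (m - 2))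

lemma one_le_Ch (m b : ℝ) : 1 ≤ Ch m b := one_le_cosh _

lemma Ch_pos (m b : ℝ) : 0 < Ch m b := lt_of_lt_of_le one_pos (one_le_Ch m b)

lemma hasDerivAt_div_sqrt (m b : ℝ) : HasDerivAt (fun x : ℝ => x / √m) (1 / √m) b :=
  (hasDerivAt_id b).div_const _

lemma hasDerivAt_Ch (m b : ℝ) : HasDerivAt (Ch m) (sinh (b / √m) * (1 / √m)) b :=
  (hasDerivAt_cosh _).comp b (hasDerivAt_div_sqrt m b)

lemma hasDerivAt_Ch_rpow (m s b : ℝ) :
    HasDerivAt (fun x => Ch m x ^ s) (sinh (b / √m) * (1 / √m) * s * Ch m b ^ (s - 1)) b :=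
  (hasDerivAt_Ch m b).rpow_const (Or.inl (Ch_pos m b).ne')

lemma hasDerivAt_Rp {m : ℝ} (hm : 0 < m) (b : ℝ) : HasDerivAt (Rp m) (Pp m b) b := by
  have h := (hasDerivAt_Ch_rpow m m b).const_mul 2
  have hs : 0 < √m := Real.sqrt_pos.2 hm
  have e : Pp m b = 2 * (sinh (b / √m) * (1 / √m) * m * Ch m b ^ (m - 1)) := by
    unfold Pp
    have h2 : √m = 1 / √m * m := by
      rw [one_div, inv_mul_eq_div, eq_div_iff hs.ne', Real.mul_self_sqrt hm.le]
    calc 2 * √m * (Ch m b ^ (m - 1) * sinh (b / √m))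
        = 2 * (1 / √m * m) * (Ch m b ^ (m - 1) * sinh (b / √m)) := by rw [← h2]
      _ = _ := by ring
  rw [e]
  exact h

lemma sinh_sq_eq (m b : ℝ) : sinh (b / √m) ^ 2 = Ch m b ^ 2 - 1 := by
  unfold Ch; rw [Real.cosh_sq]; ring

lemma Ch_rpow_two (m b s : ℝ) : Ch m b ^ s = Ch m b ^ (s - 2) * Ch m b ^ 2 := by
  rw [← Real.rpow_natCast (Ch m b) 2, ← Real.rpow_add (Ch_pos m b)]
  norm_num

lemma Ch_rpow_one (m b s : ℝ) : Ch m b ^ s = Ch m b ^ (s - 1) * Ch m b := by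
  conv_rhs => rw [← Real.rpow_one (Ch m b), ← Real.rpow_mul (Ch_pos m b).le, one_mul]
  rw [← Real.rpow_add (Ch_pos m b)]
  norm_num

lemma hasDerivAt_Pp {m : ℝ} (hm : 0 < m) (b : ℝ) : HasDerivAt (Pp m) (Tp m b) b := by
  have hs : 0 < √m := Real.sqrt_pos.2 hm
  have hsh : HasDerivAt (fun x : ℝ => sinh (x / √m)) (cosh (b / √m) * (1 / √m)) b :=
    (hasDerivAt_sinh _).comp b (hasDerivAt_div_sqrt m b)
  have h := ((hasDerivAt_Ch_rpow m (m - 1) b).mul hsh).const_mul (2 * √m)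
  have e : Tp m b = 2 * √m * (sinh (b / √m) * (1 / √m) * (m - 1) * Ch m b ^ (m - 1 - 1)
      * sinh (b / √m) + Ch m b ^ (m - 1) * (cosh (b / √m) * (1 / √m))) := by
    have h1 : √m * (1 / √m) = 1 := by field_simp
    have h2 := sinh_sq_eq m b
    have h3 : Ch m b ^ m = Ch m b ^ (m - 2) * Ch m b ^ 2 := Ch_rpow_two m b m
    have h4 : Ch m b ^ (m - 1) * cosh (b / √m) = Ch m b ^ m := by
      rw [Ch_rpow_one m b m]; rfl
    have h5 : m - 1 - 1 = m - 2 := by ring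
    calc Tp m b = 2 * ((m - 1) * Ch m b ^ (m - 2) * (Ch m b ^ 2 - 1) + Ch m b ^ m) := by
          unfold Tp; rw [h3]; ring
      _ = 2 * ((m - 1) * Ch m b ^ (m - 1 - 1) * sinh (b / √m) ^ 2
            + Ch m b ^ (m - 1) * cosh (b / √m)) := by rw [h2, h4, h5]
      _ = 2 * (√m * (1 / √m)) * ((m - 1) * Ch m b ^ (m - 1 - 1) * sinh (b / √m) ^ 2
            + Ch m b ^ (m - 1) * cosh (b / √m)) := by rw [h1]; ring
      _ = _ := by ring
  rw [e]
  exact h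

lemma contDiff_Ch (m : ℝ) {n : WithTop ℕ∞} : ContDiff ℝ n (Ch m) :=
  Real.contDiff_cosh.comp (contDiff_id.div_const _)

lemma contDiff_Rp (m : ℝ) {n : WithTop ℕ∞} : ContDiff ℝ n (Rp m) :=
  contDiff_const.mul (contDiff_iff_contDiffAt.2 fun x =>
    (contDiff_Ch m).contDiffAt.rpow_const_of_ne (Ch_pos m x).ne')

/-- `1 ≤ m C ^ m + (1 - m) C ^ (m - 2)` and more. -/
lemma tp_aux {m : ℝ} (hm : 2 / 3 ≤ m) (hm1 : m ≤ 1) {C : ℝ} (hC : 1 ≤ C) :
    (3 * m - 2) / m * (C ^ m - 1) + 1 ≤ m * C ^ m + (1 - m) * C ^ (m - 2) := by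
  have hm0 : 0 < m := by linarith
  set F : ℝ → ℝ := fun x => m * x ^ m + (1 - m) * x ^ (m - 2) - (3 * m - 2) / m * x ^ m with hF
  have hd : ∀ x : ℝ, 0 < x → HasDerivAt F
      (m * (m * x ^ (m - 1)) + (1 - m) * ((m - 2) * x ^ (m - 2 - 1))
        - (3 * m - 2) / m * (m * x ^ (m - 1))) x := by
    intro x hx
    have h1 := Real.hasDerivAt_rpow_const (p := m) (Or.inl hx.ne')
    have h2 := Real.hasDerivAt_rpow_const (p := m - 2) (Or.inl hx.ne')
    exact ((h1.const_mul m).add (h2.const_mul (1 - m))).sub (h1.const_mul _)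
  have hmono : MonotoneOn F (Set.Ici 1) := by
    apply monotoneOn_of_deriv_nonneg (convex_Ici 1)
    · intro x hx
      exact (hd x (lt_of_lt_of_le one_pos hx)).continuousAt.continuousWithinAt
    · intro x hx
      rw [interior_Ici] at hx
      exact (hd x (lt_trans one_pos hx)).differentiableAt.differentiableWithinAt
    · intro x hx
      rw [interior_Ici] at hx
      have hx1 : (1 : ℝ) < x := hx
      have hx0 : 0 < x := lt_trans one_pos hx1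
      rw [(hd x hx0).deriv]
      have e1 : x ^ (m - 1) = x ^ (m - 2 - 1) * x ^ 2 := by
        rw [← Real.rpow_natCast x 2, ← Real.rpow_add hx0]; norm_num; ring_nf
      rw [e1]
      have e2 : m * (m * (x ^ (m - 2 - 1) * x ^ 2)) + (1 - m) * ((m - 2) * x ^ (m - 2 - 1))
          - (3 * m - 2) / m * (m * (x ^ (m - 2 - 1) * x ^ 2))
          = x ^ (m - 2 - 1) * ((1 - m) * (2 - m) * (x ^ 2 - 1)) := by
        field_simp; ring
      rw [e2]
      have : 0 ≤ x ^ (m - 2 - 1) := (Real.rpow_pos_of_pos hx0 _).le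
      have h3 : 0 ≤ x ^ 2 - 1 := by nlinarith
      have h4 : 0 ≤ (1 - m) * (2 - m) := mul_nonneg (by linarith) (by linarith)
      positivity
  have h := hmono (Set.mem_Ici.2 le_rfl) (Set.mem_Ici.2 hC) hC
  simp only [hF, Real.one_rpow] at h
  have : (3 * m - 2) / m * (C ^ m - 1) = (3 * m - 2) / m * C ^ m - (3 * m - 2) / m := by ring
  linarith

lemma two_le_Rp {m : ℝ} (hm : 0 ≤ m) (b : ℝ) : 2 ≤ Rp m b := by
  have := Real.one_le_rpow (one_le_Ch m b) hm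
  unfold Rp; linarith

/-- `T - 2 ≥ ((3m - 2)/m) (R - 2)`. -/
lemma Tp_ge {m : ℝ} (hm : 2 / 3 ≤ m) (hm1 : m ≤ 1) (b : ℝ) :
    (3 * m - 2) / m * (Rp m b - 2) ≤ Tp m b - 2 := by
  have h := tp_aux hm hm1 (one_le_Ch m b)
  have e : (3 * m - 2) / m * (Rp m b - 2) = 2 * ((3 * m - 2) / m * (Ch m b ^ m - 1)) := by
    unfold Rp; ring
  rw [e]
  unfold Tp; linarith

lemma two_le_Tp {m : ℝ} (hm : 2 / 3 ≤ m) (hm1 : m ≤ 1) (b : ℝ) : 2 ≤ Tp m b := by
  have h := Tp_ge hm hm1 b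
  have h2 := two_le_Rp (m := m) (by linarith) b
  have h3 : 0 ≤ (3 * m - 2) / m * (Rp m b - 2) := by
    apply mul_nonneg (div_nonneg (by linarith) (by linarith)) (by linarith)
  linarith

lemma Tp_le {m : ℝ} (hm1 : m ≤ 1) (b : ℝ) : Tp m b ≤ Rp m b := by
  have h3 := Ch_rpow_two m b m
  have h0 : 0 < Ch m b ^ (m - 2) := Real.rpow_pos_of_pos (Ch_pos m b) _
  have h1 := one_le_Ch m b
  unfold Tp Rp
  have h2 : Ch m b ^ (m - 2) ≤ Ch m b ^ m := by
    rw [h3]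
    have : 1 ≤ Ch m b ^ 2 := one_le_pow₀ h1
    nlinarith
  nlinarith

lemma Pp_sq {m : ℝ} (hm : 0 ≤ m) (b : ℝ) :
    Pp m b ^ 2 = 4 * m * (Ch m b ^ (m - 1)) ^ 2 * (Ch m b ^ 2 - 1) := by
  unfold Pp
  rw [mul_pow, mul_pow, mul_pow, Real.sq_sqrt hm, sinh_sq_eq]; ring

/-- `P² ≤ R T`. -/
lemma Pp_c2 {m : ℝ} (hm : 0 ≤ m) (hm1 : m ≤ 1) (b : ℝ) : Pp m b ^ 2 ≤ Rp m b * Tp m b := by
  rw [Pp_sq hm]
  have h0 : 0 < Ch m b ^ (m - 2) := Real.rpow_pos_of_pos (Ch_pos m b) _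
  have h1 := one_le_Ch m b
  have e1 : Ch m b ^ (m - 1) = Ch m b ^ (m - 2) * Ch m b := by
    have := Ch_rpow_one m b (m - 1)
    rw [this]; congr 2; ring
  have e2 := Ch_rpow_two m b m
  unfold Rp Tp
  rw [e1, e2]
  set A := Ch m b ^ (m - 2)
  set C := Ch m b
  have : 2 * (A * C ^ 2) * (2 * (m * (A * C ^ 2) + (1 - m) * A))
      - 4 * m * (A * C) ^ 2 * (C ^ 2 - 1) = 4 * A ^ 2 * C ^ 2 := by ring
  have h4 : 0 ≤ 4 * A ^ 2 * C ^ 2 := by positivity
  linarith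

/-- `C^k - C^{-k} ≤ k (C - C⁻¹)` for `0 ≤ k ≤ 1`, `C ≥ 1`. -/
lemma rpow_sub_le {k : ℝ} (hk : 0 ≤ k) (hk1 : k ≤ 1) {C : ℝ} (hC : 1 ≤ C) :
    C ^ k - C ^ (-k) ≤ k * (C - C⁻¹) := by
  have hC0 : 0 < C := lt_of_lt_of_le one_pos hC
  obtain ⟨t, ht, rfl⟩ : ∃ t : ℝ, 0 ≤ t ∧ exp t = C := ⟨log C, Real.log_nonneg hC, Real.exp_log hC0⟩
  rw [← Real.exp_mul, ← Real.exp_mul, ← Real.exp_neg]
  have h1 : exp (t * k) - exp (t * -k) = 2 * sinh (k * t) := by
    rw [Real.sinh_eq]; ring_nf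
  have h2 : exp t - exp (-t) = 2 * sinh t := by rw [Real.sinh_eq]; ring
  rw [h1, h2]
  -- sinh (k t) ≤ k sinh t
  have hmono : MonotoneOn (fun s => k * sinh s - sinh (k * s)) (Set.Ici 0) := by
    have hd : ∀ s : ℝ, HasDerivAt (fun s => k * sinh s - sinh (k * s))
        (k * cosh s - cosh (k * s) * (k * 1)) s := by
      intro s
      exact ((hasDerivAt_sinh s).const_mul k).sub
        ((hasDerivAt_sinh (k * s)).comp s ((hasDerivAt_id s).const_mul k))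
    apply monotoneOn_of_deriv_nonneg (convex_Ici 0)
    · intro s _; exact (hd s).continuousAt.continuousWithinAt
    · intro s _; exact (hd s).differentiableAt.differentiableWithinAt
    · intro s hs
      rw [interior_Ici] at hs
      have hs0 : (0 : ℝ) < s := hs
      rw [(hd s).deriv]
      have : cosh (k * s) ≤ cosh s := by
        rw [Real.cosh_le_cosh, abs_mul, abs_of_nonneg hk]
        nlinarith [abs_nonneg s]
      nlinarith
  have h := hmono (Set.mem_Ici.2 le_rfl) (Set.mem_Ici.2 ht) ht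
  simp only [Real.sinh_zero, mul_zero, sub_zero] at h
  linarith

/-- `P² ≤ (R - 2)(T + 2)`. -/
lemma Pp_c1 {m : ℝ} (hm : 2 / 3 ≤ m) (hm1 : m ≤ 1) (b : ℝ) :
    Pp m b ^ 2 ≤ (Rp m b - 2) * (Tp m b + 2) := by
  rw [Pp_sq (by linarith)]
  have hC := one_le_Ch m b
  have hC0 := Ch_pos m b
  set k := 1 - m with hk
  have h := rpow_sub_le (k := k) (by linarith) (by linarith) hC
  set C := Ch m b with hCdef
  -- a = C^{-k}
  set a : ℝ := C ^ (-k) with ha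
  have ha0 : 0 < a := Real.rpow_pos_of_pos hC0 _
  have ea : a * C ^ k = 1 := by
    rw [ha, ← Real.rpow_add hC0]; simp
  have e0 : C ^ (m - 1) = a := by rw [ha, hk]; congr 1; ring
  have e1 : C ^ m = a * C := by
    rw [← e0]
    conv_rhs => rw [← Real.rpow_one C, ← Real.rpow_mul hC0.le, one_mul, ← Real.rpow_add hC0]
    congr 1; ring
  have e2 : C ^ (m - 2) * C = a := by
    rw [← e0]
    conv_lhs => rw [← Real.rpow_one C, ← Real.rpow_mul hC0.le, one_mul, ← Real.rpow_add hC0]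
    congr 1; ring
  have e2' : C ^ (m - 2) = a * C⁻¹ := by
    rw [← e2]; field_simp
  unfold Rp Tp
  rw [← hCdef, e0, e1, e2']
  have hm' : m = 1 - k := by rw [hk]; ring
  rw [hm']
  -- difference
  have h3 : a * (C ^ k - a) ≤ a * (k * (C - C⁻¹)) := mul_le_mul_of_nonneg_left h ha0.le
  have h4 : a * (C ^ k - a) = 1 - a ^ 2 := by rw [mul_sub, ea]; ring
  rw [h4] at h3
  have key : (2 * (a * C) - 2) * (2 * ((1 - k) * (a * C) + (1 - (1 - k)) * (a * C⁻¹)) + 2)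
      - 4 * (1 - k) * a ^ 2 * (C ^ 2 - 1)
      = 4 * (a * (k * (C - C⁻¹)) - (1 - a ^ 2)) := by
    field_simp
    ring
  linarith

end Vale.Agent.P088.R2.H747
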